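import Crest.Agent.R192.Defs

/-!
R192/HN/Ana: calculus of twisted-periodic smooth families (no group theory).
-/

set_option autoImplicit false

open MeasureTheory Complex Filter Topology
open scoped ContDiff ComplexConjugate

noncomputable section

namespace Crest.Agent.R192.HN

variable {N : ℕ}

theorem hasFDerivAt_snd {F : ℝ × (Fin N → ℝ) → ℂ} (hF : ContDiff ℝ ∞ F) (s : ℝ) (v : Fin N → ℝ) :
    HasFDerivAt (fun w => F (s, w))
      ((fderiv ℝ F (s, v)).comp (ContinuousLinearMap.inr ℝ ℝ (Fin N → ℝ))) v :=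
  (hF.differentiable (by simp) (s, v)).hasFDerivAt.comp v (hasFDerivAt_prodMk_right s v)

theorem pd_snd {F : ℝ × (Fin N → ℝ) → ℂ} (hF : ContDiff ℝ ∞ F) (s : ℝ) (v : Fin N → ℝ) (i : Fin N) :
    pd i (fun w => F (s, w)) v = fderiv ℝ F (s, v) (0, Pi.single i 1) := by
  unfold pd
  rw [(hasFDerivAt_snd hF s v).fderiv]
  simp

theorem continuous_pd_snd {F : ℝ × (Fin N → ℝ) → ℂ} (hF : ContDiff ℝ ∞ F) (v : Fin N → ℝ) (i : Fin N) :
    Continuous fun s => pd i (fun w => F (s, w)) v := by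
  simp only [pd_snd hF]
  have hc : Continuous (fderiv ℝ F) := hF.continuous_fderiv (by simp)
  exact (hc.comp (by fun_prop)).clm_apply continuous_const

theorem hasFDerivAt_int {F : ℝ × (Fin N → ℝ) → ℂ} (hF : ContDiff ℝ ∞ F) (a b : ℝ) (v : Fin N → ℝ) :
    HasFDerivAt (fun w => ∫ s in a..b, F (s, w))
      (∫ s in a..b, (fderiv ℝ F (s, v)).comp (ContinuousLinearMap.inr ℝ ℝ (Fin N → ℝ))) v := by
  have hc : Continuous (fderiv ℝ F) := hF.continuous_fderiv (by simp)
  have hc' : Continuous fun p : ℝ × (Fin N → ℝ) =>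
      (fderiv ℝ F p).comp (ContinuousLinearMap.inr ℝ ℝ (Fin N → ℝ)) :=
    hc.clm_comp continuous_const
  obtain ⟨C, hC⟩ := ((isCompact_uIcc (a := a) (b := b)).prod
    (isCompact_closedBall v 1)).exists_bound_of_continuousOn hc'.continuousOn
  refine intervalIntegral.hasFDerivAt_integral_of_dominated_of_fderiv_le
    (F := fun w s => F (s, w))
    (F' := fun w s => (fderiv ℝ F (s, w)).comp (ContinuousLinearMap.inr ℝ ℝ (Fin N → ℝ)))
    (bound := fun _ => C) (Metric.closedBall_mem_nhds v one_pos) ?_ ?_ ?_ ?_ ?_ ?_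
  · exact Eventually.of_forall fun w =>
      (hF.continuous.comp (by fun_prop : Continuous fun s : ℝ => (s, w))).aestronglyMeasurable
  · exact (hF.continuous.comp (by fun_prop : Continuous fun s : ℝ => (s, v))).intervalIntegrable _ _
  · exact (hc'.comp (by fun_prop : Continuous fun s : ℝ => (s, v))).aestronglyMeasurable
  · exact Eventually.of_forall fun s hs w hw => hC (s, w) ⟨Set.uIoc_subset_uIcc hs, hw⟩
  · exact intervalIntegrable_const
  · exact Eventually.of_forall fun s _ w _ => hasFDerivAt_snd hF s w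

theorem pd_int {F : ℝ × (Fin N → ℝ) → ℂ} (hF : ContDiff ℝ ∞ F) (a b : ℝ) (v : Fin N → ℝ) (i : Fin N) :
    pd i (fun w => ∫ s in a..b, F (s, w)) v = ∫ s in a..b, pd i (fun w => F (s, w)) v := by
  have hc : Continuous (fderiv ℝ F) := hF.continuous_fderiv (by simp)
  have hc' : Continuous fun s : ℝ =>
      (fderiv ℝ F (s, v)).comp (ContinuousLinearMap.inr ℝ ℝ (Fin N → ℝ)) :=
    (hc.comp (by fun_prop)).clm_comp continuous_const
  simp only [pd_snd hF]
  unfold pd
  rw [(hasFDerivAt_int hF a b v).fderiv, ContinuousLinearMap.intervalIntegral_apply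
    (hc'.intervalIntegrable _ _)]
  simp

/-- the integral over one period of a twisted-periodic function -/
theorem int_shift {D : ℝ → ℂ} (hD : Continuous D) {χ : ℂ} (h : ∀ s, D (s + 1) = χ * D s) (σ : ℝ) :
    ∫ s in (0 : ℝ)..1, D (σ + s) = (∫ s in (0 : ℝ)..1, D s) + (χ - 1) * ∫ s in (0 : ℝ)..σ, D s := by
  have h1 : ∫ s in (0 : ℝ)..1, D (σ + s) = ∫ s in σ..σ + 1, D s := by
    rw [intervalIntegral.integral_comp_add_left]; simp
  have h2 : ∫ s in (1 : ℝ)..σ + 1, D s = χ * ∫ s in (0 : ℝ)..σ, D s := by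
    rw [← intervalIntegral.integral_const_mul]
    simp only [← h]
    rw [intervalIntegral.integral_comp_add_right]; simp
  have h3 := intervalIntegral.integral_add_adjacent_intervals (μ := volume)
    (hD.intervalIntegrable 0 σ) (hD.intervalIntegrable σ (σ + 1))
  have h4 := intervalIntegral.integral_add_adjacent_intervals (μ := volume)
    (hD.intervalIntegrable 0 1) (hD.intervalIntegrable 1 (σ + 1))
  rw [h1]
  rw [h2] at h4
  linear_combination h3 - h4

theorem norm_int_shift_le {D : ℝ → ℂ} {χ : ℂ} (hχ : ‖χ‖ = 1) (h : ∀ s, D (s + 1) = χ * D s) (σ : ℝ) :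
    ‖∫ s in (0 : ℝ)..1, D (σ + s)‖ ≤ ∫ s in (0 : ℝ)..1, ‖D s‖ := by
  refine (intervalIntegral.norm_integral_le_integral_norm zero_le_one).trans (le_of_eq ?_)
  have hp : Function.Periodic (fun s => ‖D s‖) 1 := fun s => by
    simp only [h, norm_mul, hχ, one_mul]
  have h1 : ∫ s in (0 : ℝ)..1, ‖D (σ + s)‖ = ∫ s in σ..σ + 1, ‖D s‖ := by
    rw [intervalIntegral.integral_comp_add_left (fun s => ‖D s‖)]; simp
  rw [h1, hp.intervalIntegral_add_eq σ 0, zero_add]

/-- the twisted primitive -/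
def QQ (χ : ℂ) (F : ℝ × (Fin N → ℝ) → ℂ) (σ : ℝ) (v : Fin N → ℝ) : ℂ :=
  (χ - 1)⁻¹ * ∫ s in (0 : ℝ)..1, F (σ + s, v)

theorem QQ_eq {F : ℝ × (Fin N → ℝ) → ℂ} (hF : Continuous F) {χ : ℂ} (hχ : χ ≠ 1)
    (h : ∀ s v, F (s + 1, v) = χ * F (s, v)) (σ : ℝ) (v : Fin N → ℝ) :
    QQ χ F σ v = (χ - 1)⁻¹ * (∫ s in (0 : ℝ)..1, F (s, v)) + ∫ s in (0 : ℝ)..σ, F (s, v) := by
  unfold QQ
  rw [int_shift (D := fun s => F (s, v)) (hF.comp (by fun_prop)) (fun s => h s v) σ, mul_add,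
    ← mul_assoc, inv_mul_cancel₀ (sub_ne_zero.2 hχ), one_mul]

theorem hasDerivAt_QQ {F : ℝ × (Fin N → ℝ) → ℂ} (hF : Continuous F) {χ : ℂ} (hχ : χ ≠ 1)
    (h : ∀ s v, F (s + 1, v) = χ * F (s, v)) (σ : ℝ) (v : Fin N → ℝ) :
    HasDerivAt (fun s => QQ χ F s v) (F (σ, v)) σ := by
  simp only [QQ_eq hF hχ h]
  have hc : Continuous fun s => F (s, v) := hF.comp (by fun_prop)
  exact (intervalIntegral.integral_hasDerivAt_right
    (hc.intervalIntegrable _ _) (hc.stronglyMeasurableAtFilter _ _) hc.continuousAt).const_add _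

theorem continuous_QQ {F : ℝ × (Fin N → ℝ) → ℂ} (hF : Continuous F) {χ : ℂ} (hχ : χ ≠ 1)
    (h : ∀ s v, F (s + 1, v) = χ * F (s, v)) (v : Fin N → ℝ) : Continuous fun s => QQ χ F s v :=
  continuous_iff_continuousAt.2 fun σ => (hasDerivAt_QQ hF hχ h σ v).continuousAt

theorem norm_QQ_le {F : ℝ × (Fin N → ℝ) → ℂ} {χ : ℂ} (hχ : ‖χ‖ = 1)
    (h : ∀ s v, F (s + 1, v) = χ * F (s, v)) (σ : ℝ) (v : Fin N → ℝ) :
    ‖QQ χ F σ v‖ ≤ ‖(χ - 1)⁻¹‖ * ∫ s in (0 : ℝ)..1, ‖F (s, v)‖ := by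
  unfold QQ
  rw [norm_mul]
  exact mul_le_mul_of_nonneg_left
    (norm_int_shift_le (D := fun s => F (s, v)) hχ (fun s => h s v) σ) (norm_nonneg _)

theorem differentiableAt_QQ {F : ℝ × (Fin N → ℝ) → ℂ} (hF : ContDiff ℝ ∞ F) {χ : ℂ} (hχ : χ ≠ 1)
    (h : ∀ s v, F (s + 1, v) = χ * F (s, v)) (σ : ℝ) (v : Fin N → ℝ) :
    DifferentiableAt ℝ (fun w => QQ χ F σ w) v := by
  simp only [QQ_eq hF.continuous hχ h]
  exact ((hasFDerivAt_int hF 0 1 v).differentiableAt.const_mul _).add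
    (hasFDerivAt_int hF 0 σ v).differentiableAt

theorem pd_QQ {F : ℝ × (Fin N → ℝ) → ℂ} (hF : ContDiff ℝ ∞ F) {χ : ℂ} (hχ : χ ≠ 1)
    (h : ∀ s v, F (s + 1, v) = χ * F (s, v)) (σ : ℝ) (v : Fin N → ℝ) (i : Fin N) :
    pd i (fun w => QQ χ F σ w) v = (χ - 1)⁻¹ * (∫ s in (0 : ℝ)..1, pd i (fun w => F (s, w)) v) +
      ∫ s in (0 : ℝ)..σ, pd i (fun w => F (s, w)) v := by
  simp only [QQ_eq hF.continuous hχ h]
  rw [← pd_int hF, ← pd_int hF]
  unfold pd
  rw [fderiv_fun_add ((hasFDerivAt_int hF 0 1 v).differentiableAt.const_mul _)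
    (hasFDerivAt_int hF 0 σ v).differentiableAt,
    fderiv_const_mul (hasFDerivAt_int hF 0 1 v).differentiableAt]
  simp

theorem pd_conj {f : (Fin N → ℝ) → ℂ} {v : Fin N → ℝ} (hf : DifferentiableAt ℝ f v) (i : Fin N) :
    pd i (fun w => conj (f w)) v = conj (pd i f v) := by
  unfold pd
  have := (Complex.conjCLE.toContinuousLinearMap.hasFDerivAt.comp v hf.hasFDerivAt).fderiv
  have h2 : (fun w => conj (f w)) = (Complex.conjCLE.toContinuousLinearMap : ℂ → ℂ) ∘ f := rfl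
  rw [h2, this]
  simp

theorem differentiableAt_conj {f : (Fin N → ℝ) → ℂ} {v : Fin N → ℝ} (hf : DifferentiableAt ℝ f v) :
    DifferentiableAt ℝ (fun w => conj (f w)) v :=
  (Complex.conjCLE.toContinuousLinearMap.hasFDerivAt.comp v hf.hasFDerivAt).differentiableAt

theorem pd_sum {Z : Type} (s : Finset Z) {f : Z → (Fin N → ℝ) → ℂ} {v : Fin N → ℝ}
    (hf : ∀ z ∈ s, DifferentiableAt ℝ (f z) v) (i : Fin N) :
    pd i (fun w => ∑ z ∈ s, f z w) v = ∑ z ∈ s, pd i (f z) v := by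
  unfold pd
  rw [fderiv_fun_sum hf]
  simp

theorem pd_const_mul (c : ℂ) {f : (Fin N → ℝ) → ℂ} {v : Fin N → ℝ}
    (hf : DifferentiableAt ℝ f v) (i : Fin N) : pd i (fun w => c * f w) v = c * pd i f v := by
  unfold pd
  rw [fderiv_const_mul hf]
  simp

theorem pd_mul_const (c : ℂ) {f : (Fin N → ℝ) → ℂ} {v : Fin N → ℝ}
    (hf : DifferentiableAt ℝ f v) (i : Fin N) : pd i (fun w => f w * c) v = pd i f v * c := by
  simp only [mul_comm _ c]
  exact pd_const_mul c hf i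

theorem pd_zero (v : Fin N → ℝ) (i : Fin N) : pd i (fun _ => (0 : ℂ)) v = 0 := by
  unfold pd; simp

/-- partial derivative of a double sum of products -/
theorem pd_dsum {Z : Type} (s : Finset Z) (r : Z → Z → Prop) [∀ z z', Decidable (r z z')]
    {f : Z → Z → (Fin N → ℝ) → ℂ} {v : Fin N → ℝ}
    (hf : ∀ z z', DifferentiableAt ℝ (f z z') v) (i : Fin N) :
    pd i (fun w => ∑ z ∈ s, ∑ z' ∈ s, if r z z' then f z z' w else 0) v =
      ∑ z ∈ s, ∑ z' ∈ s, if r z z' then pd i (f z z') v else 0 := by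
  have hd : ∀ z z', DifferentiableAt ℝ (fun w => if r z z' then f z z' w else 0) v := by
    intro z z'
    by_cases h : r z z'
    · simp only [if_pos h]; exact hf z z'
    · simp only [if_neg h]; exact differentiableAt_const _
  rw [pd_sum s (f := fun z w => ∑ z' ∈ s, if r z z' then f z z' w else 0)
    (fun z _ => DifferentiableAt.fun_sum fun z' _ => hd z z')]
  refine Finset.sum_congr rfl fun z _ => ?_
  rw [pd_sum s (f := fun z' w => if r z z' then f z z' w else 0) (fun z' _ => hd z z')]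
  refine Finset.sum_congr rfl fun z' _ => ?_
  by_cases h : r z z'
  · simp only [if_pos h]
  · simp only [if_neg h]; exact pd_zero v i

theorem int_dsum {Z : Type} (s : Finset Z) (r : Z → Z → Prop) [∀ z z', Decidable (r z z')]
    {f : Z → Z → ℝ → ℂ} (hf : ∀ z z', Continuous (f z z')) :
    (∫ σ in (0 : ℝ)..1, ∑ z ∈ s, ∑ z' ∈ s, if r z z' then f z z' σ else 0) =
      ∑ z ∈ s, ∑ z' ∈ s, if r z z' then ∫ σ in (0 : ℝ)..1, f z z' σ else 0 := by
  have hd : ∀ z z', Continuous (fun σ => if r z z' then f z z' σ else 0) := by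
    intro z z'
    by_cases h : r z z'
    · simp only [if_pos h]; exact hf z z'
    · simp only [if_neg h]; exact continuous_const
  rw [intervalIntegral.integral_finsetSum (f := fun z σ => ∑ z' ∈ s, if r z z' then f z z' σ else 0)
    (fun z _ => (continuous_finsetSum _ fun z' _ => hd z z').intervalIntegrable _ _)]
  refine Finset.sum_congr rfl fun z _ => ?_
  rw [intervalIntegral.integral_finsetSum (f := fun z' σ => if r z z' then f z z' σ else 0)
    (fun z' _ => (hd z z').intervalIntegrable _ _)]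
  refine Finset.sum_congr rfl fun z' _ => ?_
  by_cases h : r z z'
  · simp only [if_pos h]
  · simp only [if_neg h]; simp

theorem norm_dsum_le {Z : Type} (s : Finset Z) (r : Z → Z → Prop) [∀ z z', Decidable (r z z')]
    {f : Z → Z → ℂ} {a b : Z → ℝ} (ha : ∀ z, 0 ≤ a z) (hb : ∀ z, 0 ≤ b z)
    (hf : ∀ z z', ‖f z z'‖ ≤ a z * b z') :
    ‖∑ z ∈ s, ∑ z' ∈ s, if r z z' then f z z' else 0‖ ≤ (∑ z ∈ s, a z) * ∑ z ∈ s, b z := by
  rw [Finset.sum_mul_sum]
  refine (norm_sum_le _ _).trans (Finset.sum_le_sum fun z _ => ?_)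
  refine (norm_sum_le _ _).trans (Finset.sum_le_sum fun z' _ => ?_)
  by_cases h : r z z'
  · simp only [if_pos h]; exact hf z z'
  · simp only [if_neg h, norm_zero]; exact mul_nonneg (ha z) (hb z')

/-- Cauchy-Schwarz on the unit interval -/
theorem int_sqrt_le {f : ℝ → ℝ} (hf : Continuous f) (h0 : ∀ s, 0 ≤ f s) {B : ℝ}
    (hB : ∫ s in (0 : ℝ)..1, f s ≤ B) : ∫ s in (0 : ℝ)..1, √(f s) ≤ √B := by
  have hI : 0 ≤ ∫ s in (0 : ℝ)..1, f s := intervalIntegral.integral_nonneg zero_le_one fun s _ => h0 s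
  have hc : Continuous fun s => √(f s) := hf.sqrt
  set m := ∫ s in (0 : ℝ)..1, √(f s) with hm
  have h1 : 0 ≤ ∫ s in (0 : ℝ)..1, (√(f s) - m) ^ 2 :=
    intervalIntegral.integral_nonneg zero_le_one fun s _ => sq_nonneg _
  have h2 : ∫ s in (0 : ℝ)..1, (√(f s) - m) ^ 2 = (∫ s in (0 : ℝ)..1, f s) - m ^ 2 := by
    have : ∀ s, (√(f s) - m) ^ 2 = f s - 2 * m * √(f s) + m ^ 2 := fun s => by
      rw [sub_sq, Real.sq_sqrt (h0 s)]; ring
    simp only [this]
    have hc2 : Continuous fun s => f s - 2 * m * √(f s) := hf.sub (hc.const_mul _)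
    rw [intervalIntegral.integral_add (hc2.intervalIntegrable _ _)
      intervalIntegrable_const, intervalIntegral.integral_sub (hf.intervalIntegrable _ _)
      ((hc.const_mul _).intervalIntegrable _ _), intervalIntegral.integral_const_mul, ← hm]
    simp; ring
  exact Real.le_sqrt_of_sq_le (by linarith)

end Crest.Agent.R192.HN
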