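import Crest.Agent.R192.Iface
import Crest.Agent.R192.Ker
import Crest.Agent.R192.Lab
import Crest.Agent.R192.HN.Ana

/-!
R192/HN/Main: the pairing form of the label part.
-/

set_option autoImplicit false

open MeasureTheory Complex Filter Topology
open scoped ContDiff ComplexConjugate

noncomputable section

namespace Crest.Agent.R192

namespace HN

variable {G : Type} [Group G] {L : Len G} {P : Par} {g : G} {n : ℕ}

/-- the section along the cell as a function of time and breakpoints -/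
def SS (L : Len G) (P : Par) (o : Omg P g) (x : Fin (n + 1) → G) (z : Lab g × Fin 2) :
    ℝ × (Fin (n + 1) → ℝ) → ℂ := fun p => ss L P o z (bs g x p.1 p.2)

structure Ctx (L : Len G) (P : Par) (o : Omg P g) (x : Fin (n + 1) → G) : Prop where
  valid : Valid L P
  smooth : ∀ z, ContDiff ℝ ∞ (SS L P o x z)
  per : ∀ z s v, SS L P o x z (s + 1, v) = chi L P z.1 * SS L P o x z (s, v)
  zero : ∀ z ∉ FF L P g x, ∀ p, SS L P o x z p = 0

theorem ctx (hS : StHS) (hV : Valid L P) (hH : Hyp L P g) (o : Omg P g) (x : Fin (n + 1) → G) :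
    Ctx L P o x := by
  obtain ⟨-, h2, h3, h4, -⟩ := hS G L P g hV hH
  refine ⟨hV, fun z => h2 o z n x, fun z s v => ?_, fun z hz p => h4 o z n x _ _ hz⟩
  show ss L P o z (bs g x (s + 1) v) = _
  rw [bs_per, h3 o z _ (homog_bs g x s v)]
  rfl

variable {o : Omg P g} {x : Fin (n + 1) → G}

theorem PP_bs (z : Lab g × Fin 2) (σ : ℝ) (v : Fin (n + 1) → ℝ) :
    PP L P o z (bs g x σ v) = QQ (chi L P z.1) (SS L P o x z) σ v := by
  unfold PP QQ SS
  simp only [sh_bs]

theorem ds_eq (z : Lab g × Fin 2) (v : Fin (n + 1) → ℝ) (σ : ℝ) (l : Fin (n + 1)) :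
    ds L P o z x v σ l = pd l (fun w => SS L P o x z (σ, w)) v := rfl

open Classical in
theorem Ctx.Phi_eq (h : Ctx L P o x) (σ : ℝ) (v : Fin (n + 1) → ℝ) (σ' : ℝ) (v' : Fin (n + 1) → ℝ) :
    Phi g (PsiN L P o) x σ v σ' v' = ∑ z ∈ FF L P g x, ∑ z' ∈ FF L P g x,
      if ch L P o z = ch L P o z' then
        conj (QQ (chi L P z.1) (SS L P o x z) σ v) * SS L P o x z' (σ', v') else 0 := by
  unfold Phi PsiN
  simp only [PP_bs]
  rw [tsum_eq_sum (s := FF L P g x)]
  · refine Finset.sum_congr rfl fun z _ => ?_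
    rw [tsum_eq_sum (s := FF L P g x)]
    · rfl
    · intro z' hz'
      have : ss L P o z' (bs g x σ' v') = 0 := h.zero z' hz' (σ', v')
      simp [this]
  · intro z hz
    have : QQ (chi L P z.1) (SS L P o x z) σ v = 0 := by
      unfold QQ
      simp [h.zero z hz]
    simp [this]

theorem Ctx.continuous_ds (h : Ctx L P o x) (z : Lab g × Fin 2) (v : Fin (n + 1) → ℝ) (l : Fin (n + 1)) :
    Continuous fun σ => ds L P o z x v σ l := continuous_pd_snd (h.smooth z) v l

theorem Ctx.continuous_SS (h : Ctx L P o x) (z : Lab g × Fin 2) (v : Fin (n + 1) → ℝ) :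
    Continuous fun σ => SS L P o x z (σ, v) := (h.smooth z).continuous.comp (by fun_prop)

theorem Ctx.continuous_QQ (h : Ctx L P o x) (z : Lab g × Fin 2) (v : Fin (n + 1) → ℝ) :
    Continuous fun σ => QQ (chi L P z.1) (SS L P o x z) σ v :=
  HN.continuous_QQ (h.smooth z).continuous (h.valid.chi_ne_one _) (h.per z) v

open Classical in
theorem Ctx.deriv_Phi (h : Ctx L P o x) (σ : ℝ) (v : Fin (n + 1) → ℝ) :
    deriv (fun s => Phi g (PsiN L P o) x s v σ v) σ = ∑ z ∈ FF L P g x, ∑ z' ∈ FF L P g x,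
      if ch L P o z = ch L P o z' then conj (SS L P o x z (σ, v)) * SS L P o x z' (σ, v) else 0 := by
  simp only [h.Phi_eq]
  refine HasDerivAt.deriv (HasDerivAt.fun_sum fun z _ => HasDerivAt.fun_sum fun z' _ => ?_)
  by_cases hc : ch L P o z = ch L P o z'
  · simp only [if_pos hc]
    have h1 := hasDerivAt_QQ (h.smooth z).continuous (h.valid.chi_ne_one _) (h.per z) σ v
    have h2 := Complex.conjCLE.toContinuousLinearMap.hasFDerivAt.comp_hasDerivAt σ h1
    exact HasDerivAt.mul_const h2 _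
  · simp only [if_neg hc]; exact hasDerivAt_const _ _

open Classical in
theorem Ctx.pd_Phi (h : Ctx L P o x) (σ : ℝ) (w v : Fin (n + 1) → ℝ) (l : Fin (n + 1)) :
    pd l (fun v' => Phi g (PsiN L P o) x σ w σ v') v = ∑ z ∈ FF L P g x, ∑ z' ∈ FF L P g x,
      if ch L P o z = ch L P o z' then
        conj (QQ (chi L P z.1) (SS L P o x z) σ w) * ds L P o z' x v σ l else 0 := by
  simp only [h.Phi_eq]
  rw [pd_dsum (FF L P g x) (fun z z' => ch L P o z = ch L P o z')
    (f := fun z z' v' => conj (QQ (chi L P z.1) (SS L P o x z) σ w) * SS L P o x z' (σ, v'))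
    (fun z z' => (hasFDerivAt_snd (h.smooth z') σ v).differentiableAt.const_mul _)]
  refine Finset.sum_congr rfl fun z _ => Finset.sum_congr rfl fun z' _ => ?_
  rw [pd_const_mul _ (hasFDerivAt_snd (h.smooth z') σ v).differentiableAt, ds_eq]

open Classical in
theorem Ctx.pd_pd_Phi (h : Ctx L P o x) (σ : ℝ) (v : Fin (n + 1) → ℝ) (i l : Fin (n + 1)) :
    pd i (fun w => pd l (fun v' => Phi g (PsiN L P o) x σ w σ v') v) v =
      ∑ z ∈ FF L P g x, ∑ z' ∈ FF L P g x, if ch L P o z = ch L P o z' then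
        (gch L P (ch L P o z) * (∫ s in (0 : ℝ)..1, conj (ds L P o z x v s i)) +
          ∫ s in (0 : ℝ)..σ, conj (ds L P o z x v s i)) * ds L P o z' x v σ l else 0 := by
  simp only [h.pd_Phi]
  have hd := fun z => differentiableAt_QQ (h.smooth z) (h.valid.chi_ne_one _) (h.per z) σ v
  rw [pd_dsum (FF L P g x) (fun z z' => ch L P o z = ch L P o z')
    (f := fun z z' w => conj (QQ (chi L P z.1) (SS L P o x z) σ w) * ds L P o z' x v σ l)
    (fun z z' => (differentiableAt_conj (hd z)).mul_const _)]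
  refine Finset.sum_congr rfl fun z _ => Finset.sum_congr rfl fun z' _ => ?_
  rw [pd_mul_const _ (differentiableAt_conj (hd z)), pd_conj (hd z),
    pd_QQ (h.smooth z) (h.valid.chi_ne_one _) (h.per z), h.valid.gch_ch, map_add, map_mul,
    ← intervalIntegral.intervalIntegral_conj, ← intervalIntegral.intervalIntegral_conj]
  rfl

theorem Ctx.continuous_prim (h : Ctx L P o x) (z : Lab g × Fin 2) (v : Fin (n + 1) → ℝ) (i : Fin (n + 1)) :
    Continuous fun σ => ∫ s in (0 : ℝ)..σ, conj (ds L P o z x v s i) :=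
  intervalIntegral.continuous_primitive
    (fun _ _ => (Complex.continuous_conj.comp (h.continuous_ds z v i)).intervalIntegrable _ _) 0

open Classical in
theorem Ctx.Mx_eq (h : Ctx L P o x) (v : Fin (n + 1) → ℝ) (i l : Fin (n + 1)) :
    Mx g (PsiN L P o) x v i l = ∑ z ∈ FF L P g x, ∑ z' ∈ FF L P g x,
      if ch L P o z = ch L P o z' then
        ∫ σ' in (0 : ℝ)..1, (gch L P (ch L P o z) * (∫ σ in (0 : ℝ)..1, conj (ds L P o z x v σ i)) +
          ∫ σ in (0 : ℝ)..σ', conj (ds L P o z x v σ i)) * ds L P o z' x v σ' l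
      else 0 := by
  unfold Mx
  simp only [Matrix.of_apply, h.pd_pd_Phi]
  exact int_dsum (FF L P g x) (fun z z' => ch L P o z = ch L P o z')
    (fun z z' => (continuous_const.add (h.continuous_prim z v i)).mul (h.continuous_ds z' v l))

/-- the pointwise estimates of block HG -/
structure Est (L : Len G) (P : Par) (o : Omg P g) (x : Fin (n + 1) → G) (v : Fin (n + 1) → ℝ) : Prop where
  bd : ∀ σ ∈ Set.Icc (0 : ℝ) 1, ∃ a : Lab g × Fin 2 → ℝ, (∀ z, 0 ≤ a z) ∧ ∑ z ∈ FF L P g x, a z ≤ P.HH ∧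
      ∀ z, ‖ss L P o z (bs g x σ v)‖ ≤ a z ∧
        ∀ l, ‖ds L P o z x v σ l‖ ≤ P.Gam * lam L P.R' g x l * P.kb (v l - σ) * a z
  uniq : ∀ σ ∈ Set.Icc (0 : ℝ) 1, ∀ z z', ch L P o z = ch L P o z' → ss L P o z (bs g x σ v) ≠ 0 →
    ss L P o z' (bs g x σ v) ≠ 0 → z = z'

theorem HH_nonneg (P : Par) : 0 ≤ P.HH := by unfold Par.HH; positivity

theorem Gam_nonneg (h : Valid L P) : 0 ≤ P.Gam := by
  have h1 := one_le_Th
  have h2 := h.gam_ge
  unfold Par.Gam; positivity

variable {v : Fin (n + 1) → ℝ}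

theorem Ctx.Dv_eq (h : Ctx L P o x) (e : Est L P o x v) : (Dv g (PsiN L P o) x v).re =
    ∫ σ in (0 : ℝ)..1, ∑ z ∈ FF L P g x, ‖ss L P o z (bs g x σ v)‖ ^ 2 := by
  unfold Dv
  rw [intervalIntegral.integral_congr
    (g := fun σ => ((∑ z ∈ FF L P g x, ‖ss L P o z (bs g x σ v)‖ ^ 2 : ℝ) : ℂ)),
    intervalIntegral.integral_ofReal, Complex.ofReal_re]
  intro σ hσ
  rw [Set.uIcc_of_le zero_le_one] at hσ
  simp only [h.deriv_Phi]
  push_cast
  refine Finset.sum_congr rfl fun z hz => ?_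
  rw [Finset.sum_eq_single_of_mem z hz, if_pos rfl, Complex.conj_mul']
  · rfl
  · intro z' _ hne
    split_ifs with hc
    · by_contra h0
      exact hne (e.uniq σ hσ z z' hc
        (fun h1 => h0 (by rw [show SS L P o x z (σ, v) = 0 from h1]; simp))
        (fun h1 => h0 (by rw [show SS L P o x z' (σ, v) = 0 from h1]; simp))).symm
    · rfl

theorem Est.sum_ds_le (hV : Valid L P) (e : Est L P o x v) {σ : ℝ} (hσ : σ ∈ Set.Icc (0 : ℝ) 1)
    (l : Fin (n + 1)) :
    ∑ z ∈ FF L P g x, ‖ds L P o z x v σ l‖ ≤ P.Gam * lam L P.R' g x l * P.HH * P.kb (v l - σ) := by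
  obtain ⟨a, -, h2, h3⟩ := e.bd σ hσ
  have h0 : 0 ≤ P.Gam * lam L P.R' g x l * P.kb (v l - σ) :=
    mul_nonneg (mul_nonneg (Gam_nonneg hV) (zero_le_one.trans (one_le_lam L _ x l))) (hV.kb_nonneg _)
  calc _ ≤ ∑ z ∈ FF L P g x, P.Gam * lam L P.R' g x l * P.kb (v l - σ) * a z :=
        Finset.sum_le_sum fun z _ => (h3 z).2 l
    _ = P.Gam * lam L P.R' g x l * P.kb (v l - σ) * ∑ z ∈ FF L P g x, a z := by rw [Finset.mul_sum]
    _ ≤ P.Gam * lam L P.R' g x l * P.kb (v l - σ) * P.HH := mul_le_mul_of_nonneg_left h2 h0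
    _ = _ := by ring

theorem int_kb_le (hV : Valid L P) {C : ℝ} (hC : 0 ≤ C) (a : ℝ) :
    ∫ σ in (0 : ℝ)..1, C * P.kb (a - σ) ≤ C * 4 := by
  rw [intervalIntegral.integral_const_mul]
  exact mul_le_mul_of_nonneg_left (hV.integral_kb_le a) hC

theorem Ctx.sum_int_ds_le (h : Ctx L P o x) (e : Est L P o x v) (l : Fin (n + 1)) :
    ∑ z ∈ FF L P g x, ∫ σ in (0 : ℝ)..1, ‖ds L P o z x v σ l‖ ≤ 4 * P.Gam * P.HH * P.R' := by
  have hk : Continuous fun σ => P.kb (v l - σ) := h.valid.continuous_kb.comp (by fun_prop)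
  have h0 : 0 ≤ P.Gam * P.HH := mul_nonneg (Gam_nonneg h.valid) (HH_nonneg P)
  have h1 : lam L P.R' g x l ≤ P.R' := lam_le L (Nat.le_add_left 1 _) x l
  have h2 : 0 ≤ lam L P.R' g x l := zero_le_one.trans (one_le_lam L _ x l)
  rw [← intervalIntegral.integral_finsetSum (f := fun z σ => ‖ds L P o z x v σ l‖)
    (fun z _ => (h.continuous_ds z v l).norm.intervalIntegrable _ _)]
  refine (intervalIntegral.integral_mono_on zero_le_one
    ((continuous_finsetSum _ fun z _ => (h.continuous_ds z v l).norm).intervalIntegrable _ _)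
    ((hk.const_mul _).intervalIntegrable _ _) fun σ hσ => e.sum_ds_le h.valid hσ l).trans ?_
  refine (int_kb_le h.valid (by nlinarith [mul_nonneg h0 h2]) _).trans ?_
  nlinarith [mul_le_mul_of_nonneg_left h1 h0]

theorem Ctx.sum_QQ_le (h : Ctx L P o x) (e : Est L P o x v) (σ : ℝ) :
    ∑ z ∈ FF L P g x, ‖QQ (chi L P z.1) (SS L P o x z) σ v‖ ≤ P.gmax * P.HH := by
  have hg : 0 ≤ P.gmax := zero_le_one.trans (one_le_gmax P)
  calc _ ≤ ∑ z ∈ FF L P g x, P.gmax * ∫ s in (0 : ℝ)..1, ‖SS L P o x z (s, v)‖ :=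
        Finset.sum_le_sum fun z _ => (norm_QQ_le (h.valid.norm_chi _) (h.per z) σ v).trans
          (mul_le_mul_of_nonneg_right (h.valid.norm_inv_chi _)
            (intervalIntegral.integral_nonneg zero_le_one fun _ _ => norm_nonneg _))
    _ = P.gmax * ∫ s in (0 : ℝ)..1, ∑ z ∈ FF L P g x, ‖SS L P o x z (s, v)‖ := by
        rw [intervalIntegral.integral_finsetSum (f := fun z s => ‖SS L P o x z (s, v)‖)
          (fun z _ => (h.continuous_SS z v).norm.intervalIntegrable _ _), Finset.mul_sum]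
    _ ≤ P.gmax * ∫ _ in (0 : ℝ)..1, P.HH := by
        refine mul_le_mul_of_nonneg_left (intervalIntegral.integral_mono_on zero_le_one
          ((continuous_finsetSum _ fun z _ => (h.continuous_SS z v).norm).intervalIntegrable _ _)
          intervalIntegrable_const fun s hs => ?_) hg
        obtain ⟨a, -, h2, h3⟩ := e.bd s hs
        exact (Finset.sum_le_sum fun z _ => (h3 z).1).trans h2
    _ = _ := by simp

theorem Ctx.norm_alp_le (h : Ctx L P o x) (e : Est L P o x v) (l : Fin (n + 1)) :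
    ‖alp g (PsiN L P o) n x v l‖ ≤ 4 * P.gmax * P.Gam * P.HH ^ 2 * lam L P.R' g x l := by
  have hk : Continuous fun σ => P.kb (v l - σ) := h.valid.continuous_kb.comp (by fun_prop)
  have hg : 0 ≤ P.gmax := zero_le_one.trans (one_le_gmax P)
  have hG := Gam_nonneg h.valid
  have hH := HH_nonneg P
  have h2 : 0 ≤ lam L P.R' g x l := zero_le_one.trans (one_le_lam L _ x l)
  unfold alp
  refine (intervalIntegral.norm_integral_le_of_norm_le zero_le_one
    (g := fun σ => (P.gmax * P.HH * (P.Gam * lam L P.R' g x l * P.HH)) * P.kb (v l - σ))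
    (Eventually.of_forall fun σ hσ => ?_) ((hk.const_mul _).intervalIntegrable _ _)).trans ?_
  · rw [h.pd_Phi]
    refine (norm_dsum_le (FF L P g x) (fun z z' => ch L P o z = ch L P o z')
      (a := fun z => ‖QQ (chi L P z.1) (SS L P o x z) σ v‖) (b := fun z => ‖ds L P o z x v σ l‖)
      (fun _ => norm_nonneg _) (fun _ => norm_nonneg _) fun z z' => by simp).trans ?_
    rw [mul_assoc]
    exact mul_le_mul (h.sum_QQ_le e σ) (e.sum_ds_le h.valid (Set.Ioc_subset_Icc_self hσ) l)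
      (Finset.sum_nonneg fun _ _ => norm_nonneg _) (by positivity)
  · refine (int_kb_le h.valid (by positivity) _).trans (le_of_eq (by ring))

theorem Ctx.norm_Mx_le (h : Ctx L P o x) (e : Est L P o x v) (i l : Fin (n + 1)) :
    ‖Mx g (PsiN L P o) x v i l‖ ≤ (P.gmax + 1) * (4 * P.Gam * P.HH * P.R') ^ 2 := by
  have hg : 0 ≤ P.gmax := zero_le_one.trans (one_le_gmax P)
  have hG := Gam_nonneg h.valid
  have hH := HH_nonneg P
  have hI : ∀ z j, 0 ≤ ∫ σ in (0 : ℝ)..1, ‖ds L P o z x v σ j‖ := fun z j =>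
    intervalIntegral.integral_nonneg zero_le_one fun _ _ => norm_nonneg _
  rw [h.Mx_eq]
  refine (norm_dsum_le (FF L P g x) (fun z z' => ch L P o z = ch L P o z')
    (a := fun z => (P.gmax + 1) * ∫ σ in (0 : ℝ)..1, ‖ds L P o z x v σ i‖)
    (b := fun z => ∫ σ in (0 : ℝ)..1, ‖ds L P o z x v σ l‖)
    (fun z => mul_nonneg (by positivity) (hI z i)) (fun z => hI z l) fun z z' => ?_).trans ?_
  · rw [← intervalIntegral.integral_const_mul
      ((P.gmax + 1) * ∫ σ in (0 : ℝ)..1, ‖ds L P o z x v σ i‖)]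
    refine intervalIntegral.norm_integral_le_of_norm_le zero_le_one
      (Eventually.of_forall fun σ hσ => ?_)
      (((h.continuous_ds z' v l).norm.const_mul _).intervalIntegrable (μ := volume) _ _)
    rw [norm_mul]
    refine mul_le_mul_of_nonneg_right ((norm_add_le _ _).trans ?_) (norm_nonneg _)
    have h1 : ∀ τ ∈ Set.Icc (0 : ℝ) 1, ‖∫ s in (0 : ℝ)..τ, conj (ds L P o z x v s i)‖ ≤
        ∫ s in (0 : ℝ)..1, ‖ds L P o z x v s i‖ := fun τ hτ => by
      refine (intervalIntegral.norm_integral_le_integral_norm hτ.1).trans ?_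
      simp only [Complex.norm_conj]
      exact intervalIntegral.integral_mono_interval le_rfl hτ.1 hτ.2
        (Eventually.of_forall fun _ => norm_nonneg _)
        ((h.continuous_ds z v i).norm.intervalIntegrable _ _)
    have h2 : ‖gch L P (ch L P o z)‖ ≤ P.gmax := by
      rw [h.valid.gch_ch, Complex.norm_conj]; exact h.valid.norm_inv_chi _
    rw [norm_mul, add_mul, one_mul]
    exact add_le_add (mul_le_mul h2 (h1 1 ⟨zero_le_one, le_rfl⟩) (norm_nonneg _) hg)
      (h1 σ (Set.Ioc_subset_Icc_self hσ))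
  · rw [← Finset.mul_sum, mul_assoc, sq]
    exact mul_le_mul_of_nonneg_left (mul_le_mul (h.sum_int_ds_le e i) (h.sum_int_ds_le e l)
      (Finset.sum_nonneg fun z _ => hI z l) (by positivity)) (by positivity)

theorem Ctx.int_sqrt (h : Ctx L P o x) (e : Est L P o x v) :
    (∫ σ in (0 : ℝ)..1, ∑ z ∈ FF L P g x, √(∑ l, (‖ds L P o z x v σ l‖ / lam L P.R' g x l) ^ 2)) ≤
      P.Gam * P.HH * √((n + 1) * (32 * Th / (P.q * P.tau))) := by
  have hG := Gam_nonneg h.valid
  have hH := HH_nonneg P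
  have hk : ∀ l, Continuous fun σ => P.kb (v l - σ) ^ 2 := fun l =>
    (h.valid.continuous_kb.comp (by fun_prop)).pow 2
  have hk2 : Continuous fun σ => ∑ l, P.kb (v l - σ) ^ 2 := continuous_finsetSum _ fun l _ => hk l
  have hc : Continuous fun σ =>
      ∑ z ∈ FF L P g x, √(∑ l, (‖ds L P o z x v σ l‖ / lam L P.R' g x l) ^ 2) :=
    continuous_finsetSum _ fun z _ => (continuous_finsetSum _ fun l _ =>
      ((h.continuous_ds z v l).norm.div_const _).pow 2).sqrt
  refine (intervalIntegral.integral_mono_on zero_le_one (hc.intervalIntegrable _ _)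
    (g := fun σ => P.Gam * P.HH * √(∑ l, P.kb (v l - σ) ^ 2))
    ((hk2.sqrt.const_mul _).intervalIntegrable _ _) fun σ hσ => ?_).trans ?_
  · obtain ⟨a, h1, h2, h3⟩ := e.bd σ hσ
    have h4 : ∀ z, √(∑ l, (‖ds L P o z x v σ l‖ / lam L P.R' g x l) ^ 2) ≤
        P.Gam * √(∑ l, P.kb (v l - σ) ^ 2) * a z := fun z => by
      refine Real.sqrt_le_iff.2 ⟨by have := h1 z; positivity, ?_⟩
      rw [mul_pow, mul_pow, Real.sq_sqrt (Finset.sum_nonneg fun _ _ => sq_nonneg _), Finset.mul_sum,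
        Finset.sum_mul]
      refine Finset.sum_le_sum fun l _ => ?_
      have hl : 0 < lam L P.R' g x l := zero_lt_one.trans_le (one_le_lam L _ x l)
      rw [← mul_pow, ← mul_pow]
      refine pow_le_pow_left₀ (div_nonneg (norm_nonneg _) hl.le) ?_ 2
      rw [div_le_iff₀ hl]
      exact ((h3 z).2 l).trans (le_of_eq (by ring))
    calc _ ≤ ∑ z ∈ FF L P g x, P.Gam * √(∑ l, P.kb (v l - σ) ^ 2) * a z :=
          Finset.sum_le_sum fun z _ => h4 z
      _ = P.Gam * √(∑ l, P.kb (v l - σ) ^ 2) * ∑ z ∈ FF L P g x, a z := by rw [Finset.mul_sum]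
      _ ≤ P.Gam * √(∑ l, P.kb (v l - σ) ^ 2) * P.HH := mul_le_mul_of_nonneg_left h2 (by positivity)
      _ = _ := by ring
  · rw [intervalIntegral.integral_const_mul]
    refine mul_le_mul_of_nonneg_left (int_sqrt_le hk2
      (fun _ => Finset.sum_nonneg fun _ _ => sq_nonneg _) ?_) (by positivity)
    rw [intervalIntegral.integral_finsetSum (f := fun l σ => P.kb (v l - σ) ^ 2)
      (fun l _ => (hk l).intervalIntegrable _ _)]
    refine (Finset.sum_le_sum fun l _ => h.valid.integral_kb_sq_le (v l)).trans (le_of_eq ?_)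
    simp

end HN

theorem stHN (hS : StHS) (hG : StHG) : StHN := by
  intro G _ L P g hV hH o ho n x v hv
  have h := HN.ctx hS hV hH o x
  have e : HN.Est L P o x v :=
    ⟨fun σ hσ => (hG G L P g hV hH o ho n x v hv σ hσ).1,
      fun σ hσ => (hG G L P g hV hH o ho n x v hv σ hσ).2.2⟩
  exact ⟨h.Dv_eq e, h.norm_alp_le e, fun z => continuous_pi fun l => h.continuous_ds z v l,
    h.Mx_eq v, h.norm_Mx_le e, h.int_sqrt e⟩

end Crest.Agent.R192
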